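import Vale.Agent.P246.R2.H429.Defs4
import Vale.Agent.P246.T.A1

/-! # P246: the algebraic complex of the covering of a wedge with two-spheres (row TW5) -/

set_option linter.all false

namespace Vale.Agent.P246.R2.H456

open Topology Metric Set CategoryTheory
open Vale.Agent.P246 Vale.Agent.P246.T Vale.Agent.P246.H429

section Alg

variable {R : Type} [Ring R] {S T : ℕ → Type} [∀ n, AddCommGroup (S n)] [∀ n, Module R (S n)]
  [∀ n, AddCommGroup (T n)] [∀ n, Module R (T n)] {d : ∀ n, S (n + 1) →ₗ[R] S n}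
  {d' : ∀ n, T (n + 1) →ₗ[R] T n} {j : ∀ n, S n →ₗ[R] T n} {P : ∀ n, Submodule R (S n)}

theorem cyc_iff (hj : ∀ n, Function.Injective (j n))
    (hc : ∀ n x, j n (d n x) = d' n (j (n + 1) x)) (n : ℕ) (x : S n) :
    DCyc T d' n (j n x) ↔ DCyc S d n x := by
  cases n with
  | zero => exact Iff.rfl
  | succ n =>
    change d' n (j (n + 1) x) = 0 ↔ d n x = 0
    rw [← hc, map_eq_zero_iff _ (hj n)]

/-- The image of a finite model under an injective chain map. -/
theorem transport (hj : ∀ n, Function.Injective (j n))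
    (hc : ∀ n x, j n (d n x) = d' n (j (n + 1) x)) (hP : IsFinModel S d (fun _ => ⊤) P) :
    IsFinModel T d' (fun n => LinearMap.range (j n)) (fun n => (P n).map (j n)) where
  le n := LinearMap.map_le_range
  d_mem := by
    rintro n _ ⟨x, hx, rfl⟩
    exact ⟨d n x, hP.d_mem n x hx, hc n x⟩
  inj := by
    rintro n _ ⟨x, hx, rfl⟩ hcy ⟨_, ⟨y, rfl⟩, hy⟩
    rw [← hc] at hy
    obtain ⟨y', hy', h⟩ := hP.inj n x hx ((cyc_iff hj hc n x).1 hcy) ⟨y, trivial, hj n hy⟩
    exact ⟨j (n + 1) y', ⟨y', hy', rfl⟩, by rw [← hc, h]⟩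
  surj := by
    rintro n _ ⟨x, rfl⟩ hcy
    obtain ⟨y, hy, hyc, z, -, h⟩ := hP.surj n x trivial ((cyc_iff hj hc n x).1 hcy)
    exact ⟨j n y, ⟨y, hy, rfl⟩, (cyc_iff hj hc n y).2 hyc, j (n + 1) z, ⟨z, rfl⟩,
      by rw [h, map_add, hc]⟩
  free n := by
    have := hP.free n
    exact Module.Free.of_equiv (Submodule.equivMapOfInjective (j n) (hj n) (P n))
  fin n := by
    have := hP.fin n
    exact Module.Finite.equiv (Submodule.equivMapOfInjective (j n) (hj n) (P n))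
  bdd := by
    obtain ⟨N, hN⟩ := hP.bdd
    exact ⟨N, fun n hn => by rw [hN n hn, Submodule.map_bot]⟩

/-- The rank of a direct sum. -/
theorem rank_sup {M : Type} [AddCommGroup M] [Module R M] {A Z : Submodule R M}
    (hd : Disjoint A Z) {a b : ℕ} (hA : Nonempty (A ≃ₗ[R] (Fin a → R)))
    (hZ : Nonempty (Z ≃ₗ[R] (Fin b → R))) :
    Nonempty ((A ⊔ Z : Submodule R M) ≃ₗ[R] (Fin (a + b) → R)) := by
  obtain ⟨u⟩ := hA
  obtain ⟨v⟩ := hZ
  let f : (A × Z) →ₗ[R] M := A.subtype.coprod Z.subtype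
  have hf : Function.Injective f := by
    rw [injective_iff_map_eq_zero]
    rintro ⟨x, y⟩ h
    have h1 : (x : M) + y = 0 := h
    have h2 : (x : M) ∈ Z := by
      rw [eq_neg_of_add_eq_zero_left h1]
      exact Z.neg_mem y.2
    have h3 : (x : M) = 0 := Submodule.disjoint_def.1 hd _ x.2 h2
    rw [h3, zero_add] at h1
    exact Prod.ext (Subtype.ext h3) (Subtype.ext h1)
  have hrange : LinearMap.range f = A ⊔ Z := by
    rw [LinearMap.range_coprod, Submodule.range_subtype, Submodule.range_subtype]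
  have e := (LinearEquiv.ofInjective f hf).trans (LinearEquiv.ofEq _ _ hrange)
  exact ⟨e.symm.trans ((LinearEquiv.prodCongr u v).trans
    ((LinearEquiv.sumArrowLequivProdArrow (Fin a) (Fin b) R R).symm.trans
      (LinearEquiv.funCongrLeft R R finSumFinEquiv).symm))⟩

variable {Q : ∀ n, Submodule R (T n)} {Z : Submodule R (T 2)}

/-- Exactness above degree two. -/
theorem high (hj : ∀ n, Function.Injective (j n))
    (hc : ∀ n x, j n (d n x) = d' n (j (n + 1) x)) (hP : IsModel S d (fun _ => ⊤) P)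
    (hQ : ∀ k, k ≠ 2 → Q k = (P k).map (j k)) (hM : IsModel T d' (fun _ => ⊤) Q)
    (hh : ∀ i, 2 ≤ i → ∀ c : S (i + 1), d i c = 0 → ∃ b : S (i + 2), d (i + 1) b = c)
    (i : ℕ) (hi : 2 ≤ i) (x : Q (i + 1)) (hx : A1x.dP hM i x = 0) :
    ∃ y, A1x.dP hM (i + 1) y = x := by
  have h1 : x.1 ∈ (P (i + 1)).map (j (i + 1)) := by
    rw [← hQ (i + 1) (by omega)]
    exact x.2
  obtain ⟨x', hx', e⟩ := h1
  have h2 : d' i x.1 = 0 := congrArg Subtype.val hx
  rw [← e, ← hc, map_eq_zero_iff _ (hj i)] at h2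
  obtain ⟨b, hb⟩ := hh i hi x' h2
  obtain ⟨y, hy, h⟩ := hP.inj (i + 1) x' hx' h2 ⟨b, trivial, hb⟩
  have h3 : j (i + 2) y ∈ Q (i + 2) := by
    rw [hQ (i + 2) (by omega)]
    exact ⟨y, hy, rfl⟩
  refine ⟨⟨j (i + 2) y, h3⟩, Subtype.ext ?_⟩
  change d' (i + 1) (j (i + 2) y) = x.1
  rw [← hc, h, e]

/-- Extension of cochains by zero. -/
theorem coh' (hj : ∀ n, Function.Injective (j n))
    (hc : ∀ n x, j n (d n x) = d' n (j (n + 1) x)) (hP : IsModel S d (fun _ => ⊤) P)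
    (hQ : ∀ k, k ≠ 2 → Q k = (P k).map (j k)) (hQ2 : Q 2 = (P 2).map (j 2) ⊔ Z)
    (hZ : Disjoint ((P 2).map (j 2)) Z) (hM : IsModel T d' (fun _ => ⊤) Q)
    {M : Type} [AddCommGroup M] [Module R M]
    (hcoh : ∀ φ : P 3 →ₗ[R] M, (∀ x, φ (A1x.dP hP 3 x) = 0) →
      ∃ ψ : P 2 →ₗ[R] M, ∀ x, φ x = ψ (A1x.dP hP 2 x))
    (φ : Q 3 →ₗ[R] M) (hφ : ∀ x, φ (A1x.dP hM 3 x) = 0) :
    ∃ ψ : Q 2 →ₗ[R] M, ∀ x, φ x = ψ (A1x.dP hM 2 x) := by
  have m3 : ∀ x : P 3, j 3 x.1 ∈ Q 3 := fun x => by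
    rw [hQ 3 (by omega)]
    exact ⟨x.1, x.2, rfl⟩
  have m4 : ∀ x : P 4, j 4 x.1 ∈ Q 4 := fun x => by
    rw [hQ 4 (by omega)]
    exact ⟨x.1, x.2, rfl⟩
  let u : P 3 →ₗ[R] Q 3 := ((j 3).comp (P 3).subtype).codRestrict (Q 3) m3
  obtain ⟨ψ, hψ⟩ := hcoh (φ.comp u) (fun x => by
    have e : u (A1x.dP hP 3 x) = A1x.dP hM 3 ⟨j 4 x.1, m4 x⟩ := Subtype.ext (hc 3 x.1)
    rw [LinearMap.comp_apply, e, hφ])
  let e2 : P 2 ≃ₗ[R] (P 2).map (j 2) := Submodule.equivMapOfInjective (j 2) (hj 2) (P 2)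
  let f : T 2 →ₗ.[R] M := ⟨(P 2).map (j 2), ψ.comp e2.symm.toLinearMap⟩
  let g : T 2 →ₗ.[R] M := ⟨Z, 0⟩
  have H : ∀ (x : f.domain) (y : g.domain), (x : T 2) = y → f x = g y := by
    intro x y hxy
    have h0 : (x : T 2) = 0 := Submodule.disjoint_def.1 hZ _ x.2 (by rw [hxy]; exact y.2)
    have h1 : x = 0 := Subtype.ext h0
    have h2 : y = 0 := Subtype.ext (hxy.symm.trans h0)
    rw [h1, h2]
    exact (map_zero f.toFun).trans (map_zero g.toFun).symm
  have hle : Q 2 ≤ f.domain ⊔ g.domain := hQ2.le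
  refine ⟨(f.sup g H).toFun.comp (Submodule.inclusion hle), fun x => ?_⟩
  have h1 : x.1 ∈ (P 3).map (j 3) := by
    rw [← hQ 3 (by omega)]
    exact x.2
  obtain ⟨x', hx', e⟩ := h1
  have ex : x = u ⟨x', hx'⟩ := Subtype.ext e.symm
  have h2 := hψ ⟨x', hx'⟩
  rw [LinearMap.comp_apply, ← ex] at h2
  rw [h2]
  have h3 : (⟨j 2 (d 2 x'), ⟨d 2 x', hP.d_mem 2 x' hx', rfl⟩⟩ : (P 2).map (j 2)) =
      e2 (A1x.dP hP 2 ⟨x', hx'⟩) := rfl
  have h4 := LinearPMap.sup_apply (f := f) (g := g) H (e2 (A1x.dP hP 2 ⟨x', hx'⟩)) 0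
    (Submodule.inclusion hle (A1x.dP hM 2 x)) (by
      change j 2 (d 2 x') + 0 = d' 2 x.1
      rw [add_zero, hc, e])
  refine Eq.trans ?_ h4.symm
  have h5 : g 0 = 0 := map_zero g.toFun
  rw [h5, add_zero]
  change _ = ψ (e2.symm (e2 (A1x.dP hP 2 ⟨x', hx'⟩)))
  rw [LinearEquiv.symm_apply_apply]

end Alg

section Top

variable {G E F : Type} [Group G] [TopologicalSpace E] [MulAction G E] [ContinuousConstSMul G E]
  [TopologicalSpace F] [MulAction G F] [ContinuousConstSMul G F]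

/-- The chain map of an equivariant map. -/
noncomputable def jm (ι : C(E, F)) (hι : ∀ (g : G) (e : E), ι (g • e) = g • ι e) (n : ℕ) :
    SC G n E →ₗ[ZG G] SC G n F where
  toFun c := SC.mk G (push ι n c.un)
  map_add' a b := map_add (push ι n) a.un b.un
  map_smul' r c := by
    apply SC.un_inj
    rw [RingHom.id_apply, SC.un_smul, SC.un_mk, SC.un_smul, SC.un_mk, Finsupp.sum, Finsupp.sum,
      map_sum]
    refine Finset.sum_congr rfl fun g _ => ?_
    rw [map_smul, ← push_comp, ← push_comp]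
    congr 2
    congr 1
    exact ContinuousMap.ext fun x => hι g x

theorem jm_d (ι : C(E, F)) (hι : ∀ (g : G) (e : E), ι (g • e) = g • ι e) (n : ℕ)
    (x : SC G (n + 1) E) : jm ι hι n (SC.d G n E x) = SC.d G n F (jm ι hι (n + 1) x) := by
  apply SC.un_inj
  exact (push_bd ι n x.un).symm

theorem jm_inj (ι : C(E, F)) (hι : ∀ (g : G) (e : E), ι (g • e) = g • ι e)
    (h : Function.Injective ι) (n : ℕ) : Function.Injective (jm ι hι n) := by
  refine Finsupp.mapDomain_injective (fun σ τ hστ => ContinuousMap.ext fun x => h ?_)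
  exact DFunLike.congr_fun hστ x

theorem con_range (ι : C(E, F)) (h : IsEmbedding ι) (n : ℕ) (c : Ch n F)
    (hc : c ∈ T.Con (range ι) n) : ∃ b : Ch n E, push ι n b = c := by
  suffices h1 : T.Con (range ι) n ≤ LinearMap.range (push ι n) from h1 hc
  rw [T.Con, Finsupp.supported_eq_span_single, Submodule.span_le]
  rintro _ ⟨σ, hσ, rfl⟩
  have hσ' : ∀ x, σ x ∈ range ι := hσ
  choose s hs using hσ'
  have hcs : Continuous s := by
    rw [h.isInducing.continuous_iff]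
    exact σ.continuous.congr fun x => (hs x).symm
  refine ⟨Finsupp.single ⟨s, hcs⟩ 1, ?_⟩
  rw [push_single]
  congr 1
  exact ContinuousMap.ext hs

theorem range_con (ι : C(E, F)) (n : ℕ) (b : Ch n E) : push ι n b ∈ T.Con (range ι) n := by
  refine push_mem (A := univ) (A' := range ι) (fun x _ => mem_range_self x) ?_
  exact A1x.mem_univ_con b

end Top

theorem tw5 : SpecAlgW := by
  intro hW G W E F _ _ _ _ _ _ _ _ _ _ _ q hq C t ι hC hSph hι hr heq hhigh h3 hfree P ν N hP hν hN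
  obtain ⟨j, hjdef⟩ : ∃ j : ∀ n, SC G n E →ₗ[ZG G] SC G n F, j = fun n => jm ι heq n := ⟨_, rfl⟩
  have hj : ∀ n, Function.Injective (j n) := fun n => by
    rw [hjdef]
    exact jm_inj ι heq hι.injective n
  have hc : ∀ n x, j n (SC.d G n E x) = SC.d G n F (j (n + 1) x) := fun n x => by
    rw [hjdef]
    exact jm_d ι heq n x
  have hA : (fun n => LinearMap.range (j n)) = fun n => Step.SA hq C n := by
    funext n
    ext x
    rw [Step.mem_SA, ← hr, hjdef]
    constructor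
    · rintro ⟨y, rfl⟩
      exact range_con ι n y.un
    · intro hx
      obtain ⟨b, hb⟩ := con_range ι hι n x.un hx
      exact ⟨SC.mk G b, hb⟩
  have hP' := transport (S := fun n => SC G n E) (T := fun n => SC G n F)
    (d := fun n => SC.d G n E) (d' := fun n => SC.d G n F) hj hc hP
  rw [hA] at hP'
  obtain ⟨Z, hZt, hZc, hZd, hQ⟩ := hW G W F q hq C t hC hSph _ hP'
  obtain ⟨Q, hQdef⟩ : ∃ Q : ∀ n, Submodule (ZG G) (SC G n F),
      Q = Function.update (fun n => (P n).map (j n)) 2 ((P 2).map (j 2) ⊔ Z) := ⟨_, rfl⟩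
  rw [← hQdef] at hQ
  have hQk : ∀ k, k ≠ 2 → Q k = (P k).map (j k) := fun k hk => by
    rw [hQdef, Function.update_of_ne hk]
  have hQ2 : Q 2 = (P 2).map (j 2) ⊔ Z := by
    rw [hQdef, Function.update_self]
  have hrank : ∀ k, Nonempty (Q k ≃ₗ[ZG G] (Fin (Function.update ν 2 (ν 2 + t) k) → ZG G)) := by
    intro k
    by_cases hk : k = 2
    · subst hk
      rw [hQ2, Function.update_self]
      obtain ⟨u⟩ := hν 2
      exact rank_sup hZd ⟨(Submodule.equivMapOfInjective (j 2) (hj 2) (P 2)).symm.trans u⟩ hZt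
    · rw [hQk k hk, Function.update_of_ne hk]
      obtain ⟨u⟩ := hν k
      exact ⟨(Submodule.equivMapOfInjective (j k) (hj k) (P k)).symm.trans u⟩
  have hdat : D2Data G (A1x.CC (S := fun n => SC G n F) (d := fun n => SC.d G n F) A1x.d_d
      hQ.toIsModel) :=
    { free := hQ.free
      finite := hQ.fin
      bounded := by
        obtain ⟨N, hN⟩ := hQ.bdd
        refine ⟨N, fun i hi => ?_⟩
        have h := hN i hi
        change Subsingleton (Q i)
        rw [h]
        infer_instance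
      homology_zero := by
        obtain ⟨ε, h1, h2, h3⟩ := A1x.hzero (fun c => A1h.aug_iff c) hQ.toIsModel
        refine ⟨ε, h1, h2, fun x => (h3 x).trans ?_⟩
        exact ⟨fun ⟨y, hy⟩ => ⟨y, (A1x.CC_d A1x.d_d hQ.toIsModel 0 y).trans hy⟩, fun ⟨y, hy⟩ =>
          ⟨y, (A1x.CC_d A1x.d_d hQ.toIsModel 0 y).symm.trans hy⟩⟩
      homology_one := by
        rw [exactAt_succ_iff]
        intro x hx
        have hx' : A1x.dP hQ.toIsModel 0 x = 0 :=
          (A1x.CC_d A1x.d_d hQ.toIsModel 0 x).symm.trans hx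
        have hx2 : SC.d G 0 F (x : Q 1).1 = 0 := congrArg Subtype.val hx'
        obtain ⟨b, hb⟩ := A1h.h_one (x : Q 1).1 hx2
        obtain ⟨y, hy, h⟩ := hQ.inj 1 (x : Q 1).1 (x : Q 1).2 hx2 ⟨SC.mk G b, trivial, hb⟩
        exact ⟨⟨y, hy⟩, (A1x.CC_d A1x.d_d hQ.toIsModel 1 ⟨y, hy⟩).trans (Subtype.ext h)⟩
      homology_high := by
        intro i hi
        obtain ⟨m, rfl⟩ : ∃ m, i = m + 3 := ⟨i - 3, by omega⟩
        rw [exactAt_succ_iff]
        intro x hx
        have hx' : A1x.dP hQ.toIsModel (m + 2) x = 0 :=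
          (A1x.CC_d A1x.d_d hQ.toIsModel (m + 2) x).symm.trans hx
        obtain ⟨y, hy⟩ := high hj hc hP.toIsModel hQk hQ.toIsModel
          (fun i hi c hc => hhigh i hi c.un hc) (m + 2) (by omega) x hx'
        exact ⟨y, (A1x.CC_d A1x.d_d hQ.toIsModel (m + 3) y).trans hy⟩
      cohomology_three := by
        intro M _ _ _ φ hφ
        have hfree' := hP.free
        obtain ⟨ψ, hψ⟩ := coh' hj hc hP.toIsModel hQk hQ2 hZd hQ.toIsModel (M := M)
          (fun φ hφ => A1x.coh (S := fun n => SC G n E) (d := fun n => SC.d G n E) A1x.d_d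
            hP.toIsModel (fun n => inferInstance) (fun n => inferInstance) (M := M) 2
            (fun f hf => A1x.h3_lin h3 f hf) φ hφ) φ (fun x => by
          have := hφ x
          rwa [show ((A1x.CC (S := fun n => SC G n F) (d := fun n => SC.d G n F) A1x.d_d
            hQ.toIsModel).d 4 3) x = A1x.dP hQ.toIsModel 3 x from
              A1x.CC_d A1x.d_d hQ.toIsModel 3 x] at this)
        refine ⟨ψ, fun x => ?_⟩
        rw [show ((A1x.CC (S := fun n => SC G n F) (d := fun n => SC.d G n F) A1x.d_d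
              hQ.toIsModel).d 3 2) x = A1x.dP hQ.toIsModel 2 x from
                A1x.CC_d A1x.d_d hQ.toIsModel 2 x]
        exact hψ x }
  refine ⟨_, hdat.isD2, ⟨Function.update ν 2 (ν 2 + t), N + 3, fun i => hrank i, fun i hi => ?_, ?_⟩,
    fun Pr ⟨e⟩ => ?_⟩
  · rw [Function.update_of_ne (by omega)]
    exact hN i (by omega)
  · have h1 : ∑ i ∈ Finset.range N, (-1 : ℤ) ^ i * (ν i : ℤ) =
        ∑ i ∈ Finset.range (N + 3), (-1 : ℤ) ^ i * (ν i : ℤ) := by
      refine Finset.sum_subset (Finset.range_mono (by omega)) fun i _ hi => ?_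
      rw [hN i (by simpa using hi), Nat.cast_zero, mul_zero]
    have h2 : ∀ i ∈ Finset.range (N + 3),
        (-1 : ℤ) ^ i * ((Function.update ν 2 (ν 2 + t) i : ℕ) : ℤ) =
          (-1 : ℤ) ^ i * (ν i : ℤ) + if i = 2 then (t : ℤ) else 0 := by
      intro i _
      by_cases hi : i = 2
      · subst hi
        rw [Function.update_self, if_pos rfl]
        push_cast
        ring
      · rw [Function.update_of_ne hi, if_neg hi, add_zero]
    rw [h1, Finset.sum_congr rfl h2, Finset.sum_add_distrib, Finset.sum_ite_eq', if_pos]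
    rw [Finset.mem_range]
    omega
  · exact A1x.qi hQ.toIsModel Pr e

end Vale.Agent.P246.R2.H456
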